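import Vale.Agent.P079.Minimal

theorem Vale.Agent.Results.P079.Kirk.result {X : Type*} [NormedAddCommGroup X] [NormedSpace ℝ X]
    [CompleteSpace X] (hX : Function.Surjective (NormedSpace.inclusionInDoubleDual ℝ X))
    (C : Set X) (hne : C.Nonempty) (hcl : IsClosed C) (hb : Bornology.IsBounded C)
    (hconv : Convex ℝ C) (T : C → C) (hT : ∀ a b : C, ‖(T a : X) - T b‖ ≤ ‖(a : X) - b‖) :
    ∃ a : C, T a = a := by
  classical
  let T' : X → X := fun a => if h : a ∈ C then T ⟨a, h⟩ else a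
  have h1 : ∀ a (h : a ∈ C), T' a = T ⟨a, h⟩ := fun a h => dif_pos h
  have h2 : ∀ a ∈ C, T' a ∈ C := fun a h => by
    rw [h1 a h]
    exact (T ⟨a, h⟩).2
  obtain ⟨a, ha, h⟩ := Vale.Agent.P079.fixed_point hX (T := T') ⟨hne, hcl, hconv, h2⟩
    ⟨h2, fun a ha b hb => by
      rw [h1 a ha, h1 b hb]
      exact hT ⟨a, ha⟩ ⟨b, hb⟩⟩ hb
  exact ⟨⟨a, ha⟩, Subtype.ext ((h1 a ha).symm.trans h)⟩
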